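import Vale.Agent.P074.Main

namespace Vale.Agent.Results.P074.ExactlyThird

open Vale.Agent.P074

theorem result (d : ℕ) (hd : 2 ≤ d) :
    {α : ℝ | 0 < α ∧ α ≤ 1 ∧ Admissible d α} = Set.Ioc 0 (1 / 3) := by
  ext α
  constructor
  · rintro ⟨h0, -, h⟩
    exact ⟨h0, le_third_of_admissible hd h0 h⟩
  · rintro ⟨h0, h⟩
    exact ⟨h0, by linarith, admissible_of_le_third (by omega) h0 h⟩

end Vale.Agent.Results.P074.ExactlyThird
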