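import Vale.Agent.P074.Upper

namespace Vale.Agent.Results.P074.NoMoreThanThird

open Vale.Agent.P074

theorem result (d : ℕ) (hd : 2 ≤ d) (α : ℝ) (hα0 : 0 < α) (h : Admissible d α) : α ≤ 1 / 3 :=
  le_third_of_admissible hd hα0 h

end Vale.Agent.Results.P074.NoMoreThanThird
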